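import Crest.Agent.R18.F1.Kap
import Crest.Agent.R18.Val
import Crest.Agent.R18.Kum

/-! Row 18, block F1: assembly. -/

set_option autoImplicit false
set_option linter.unusedSectionVars false
open Crest.NumberTheoryR

namespace Crest.Agent.R18

section
variable {F E : Type*} [Field F] [NumberField F] [Field E] [Algebra F E] [IsGalois F E]

/-- the subfield fixed by two automorphisms -/
def fix2 (t f : E ≃ₐ[F] E) : Subfield E where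
  carrier := {y | t y = y ∧ f y = y}
  mul_mem' := fun hx hy => ⟨by rw [map_mul, hx.1, hy.1], by rw [map_mul, hx.2, hy.2]⟩
  one_mem' := ⟨map_one _, map_one _⟩
  add_mem' := fun hx hy => ⟨by rw [map_add, hx.1, hy.1], by rw [map_add, hx.2, hy.2]⟩
  zero_mem' := ⟨map_zero _, map_zero _⟩
  neg_mem' := fun hx => ⟨by rw [map_neg, hx.1], by rw [map_neg, hx.2]⟩
  inv_mem' := fun _ hx => ⟨by rw [map_inv₀, hx.1], by rw [map_inv₀, hx.2]⟩

theorem f1_period (φ : E ≃ₐ[F] E) (x : E) : ∃ n : ℕ, 0 < n ∧ (φ ^ n) x = x := by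
  obtain ⟨W, -, hW, hx⟩ := exists_open_fix (F := F) {x} (Set.finite_singleton x)
  have := finiteIndex_of_open W hW
  obtain ⟨n, hn, -, h⟩ := Subgroup.exists_pow_mem_of_index_ne_zero
    (Subgroup.FiniteIndex.index_ne_zero (H := W)) φ
  exact ⟨n, hn, hx x rfl _ h⟩

theorem f1_pow_fix {g : E ≃ₐ[F] E} {x : E} (h : g x = x) (n : ℕ) : (g ^ n) x = x := by
  induction n with
  | zero => rfl
  | succ n ih => rw [pow_succ, AlgEquiv.mul_apply, h, ih]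

theorem f1_rel_pow {t φ : E ≃ₐ[F] E} {u : ℕ} (h : φ * t = t ^ u * φ) (N : ℕ) :
    φ ^ N * t = t ^ (u ^ N) * φ ^ N := by
  have h1 : ∀ k : ℕ, φ * t ^ k = t ^ (u * k) * φ := by
    intro k
    induction k with
    | zero => simp
    | succ k ih => rw [pow_succ, ← mul_assoc, ih, mul_assoc, h, ← mul_assoc, ← pow_add, mul_add,
        mul_one]
  induction N with
  | zero => simp
  | succ N ih =>
    rw [pow_succ' φ, mul_assoc, ih, ← mul_assoc, h1, mul_assoc, pow_succ' u]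

theorem f1_fix_of_pow {ℓ u : ℕ} (hℓ : ℓ.Prime) (hlu : ¬ ℓ ∣ u) {t : E ≃ₐ[F] E} (hp : ProL ℓ t)
    {y : E} (h : (t ^ u) y = y) : t y = y := by
  have hop : IsOpen (MulAction.stabilizer (E ≃ₐ[F] E) y : Set (E ≃ₐ[F] E)) :=
    stabilizer_isOpen_of_isIntegral y
  exact hp.mem_of_pow _ hop u ((Nat.Prime.coprime_iff_not_dvd hℓ).mpr hlu).symm h

theorem f1_lte {ℓ c w n : ℕ} (hℓ : ℓ.Prime) (h2 : ℓ ≠ 2) (hw : w ≠ 0) (h1 : (ℓ : ℤ) ∣ c - 1)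
    (h : (ℓ : ℤ) ^ (n + w) ∣ (c : ℤ) ^ w - 1) : (ℓ : ℤ) ^ n ∣ c - 1 := by
  have hc : ¬ (ℓ : ℤ) ∣ c := by
    intro hc
    have : (ℓ : ℤ) ∣ 1 := by simpa using hc.sub h1
    exact hℓ.one_lt.ne' (by exact_mod_cast Int.eq_one_of_dvd_one (by positivity) this)
  have e := Int.emultiplicity_pow_sub_pow hℓ (hℓ.odd_of_ne_two h2) h1 hc w
  rw [one_pow] at e
  have e1 := le_emultiplicity_of_pow_dvd h
  have e2 : emultiplicity ℓ w < w := by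
    rw [emultiplicity_lt_iff_not_dvd]
    intro hd
    exact absurd (Nat.le_of_dvd (Nat.pos_of_ne_zero hw) hd) (Nat.lt_pow_self hℓ.one_lt).not_ge
  apply pow_dvd_of_le_emultiplicity
  by_contra hlt
  push Not at hlt
  rw [e] at e1
  have : emultiplicity (ℓ : ℤ) ((c : ℤ) - 1) + emultiplicity ℓ w < (n : ℕ∞) + w :=
    ENat.add_lt_add hlt e2
  push_cast at e1
  exact absurd e1 this.not_ge

theorem f1_exp {ζ : E} {m : ℕ} [NeZero m] (hζ : IsPrimitiveRoot ζ m) (g : E ≃ₐ[F] E) :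
    ∃ c : ℕ, c.Coprime m ∧ g ζ = ζ ^ c := by
  have h1 : IsPrimitiveRoot (g ζ) m := hζ.map_of_injective g.injective
  obtain ⟨c, -, hc⟩ := hζ.eq_pow_of_pow_eq_one h1.pow_eq_one
  refine ⟨c, ?_, hc.symm⟩
  rw [← hc] at h1
  exact (hζ.pow_iff_coprime (Nat.pos_of_ne_zero (NeZero.ne m)) c).mp h1

theorem f1_pow_root {ζ : E} {g : E ≃ₐ[F] E} {c : ℕ} (h : g ζ = ζ ^ c) (k : ℕ) :
    (g ^ k) ζ = ζ ^ (c ^ k) := by
  induction k with
  | zero => simp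
  | succ k ih => rw [pow_succ', AlgEquiv.mul_apply, ih, map_pow, h, ← pow_mul, pow_succ']

/-- `t` fixes all `ℓ`-power roots of unity -/
theorem f1_mu (hE : IsSolvablyClosed E) {ℓ : ℕ} (hℓ : ℓ.Prime) (h2 : ℓ ≠ 2) {t φ : E ≃ₐ[F] E}
    {u : ℕ} (hp : ProL ℓ t) (hu : 2 ≤ u) (h : φ * t = t ^ u * φ) (n : ℕ) (ξ : E)
    (hξ : ξ ^ (ℓ ^ n) = 1) : t ξ = ξ := by
  have : Fact ℓ.Prime := ⟨hℓ⟩
  have := cz F E
  obtain ⟨w, rfl⟩ : ∃ w, u = w + 1 := ⟨u - 1, by omega⟩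
  have hw : w ≠ 0 := by omega
  obtain ⟨ζ, hζ⟩ := sc_prim hE (pow_pos hℓ.pos (n + w))
  obtain ⟨c, hc, tc⟩ := f1_exp hζ t
  obtain ⟨d, hd, φd⟩ := f1_exp hζ φ
  have e1 : ζ ^ (d * c) = ζ ^ (c ^ (w + 1) * d) := by
    have := congrArg (fun g : E ≃ₐ[F] E => g ζ) h
    simp only [AlgEquiv.mul_apply] at this
    rwa [tc, map_pow, φd, map_pow, f1_pow_root tc, ← pow_mul, ← pow_mul] at this
  have e2 := zp_inj_nat hζ e1
  have uc := (ZMod.isUnit_iff_coprime c _).mpr hc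
  have ud := (ZMod.isUnit_iff_coprime d _).mpr hd
  have e3 : (c : ZMod (ℓ ^ (n + w))) ^ w = 1 := by
    push_cast at e2
    apply (ud.mul uc).mul_left_cancel
    linear_combination - e2
  have e4 : (ℓ : ℤ) ^ (n + w) ∣ (c : ℤ) ^ w - 1 := by
    have := (ZMod.intCast_zmod_eq_zero_iff_dvd ((c : ℤ) ^ w - 1) (ℓ ^ (n + w))).mp
      (by push_cast; rw [e3, sub_self])
    exact_mod_cast this
  obtain ⟨j, hj⟩ := hp.exists_pow_fix ζ
  rw [f1_pow_root tc] at hj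
  have e5 := zp_inj_nat hζ (hj.trans (pow_one ζ).symm)
  have e6 : (ℓ : ℤ) ∣ c - 1 := by
    have a1 := congrArg (ZMod.castHom (dvd_pow_self ℓ (n := n + w) (by omega)) (ZMod ℓ)) e5
    simp only [map_natCast] at a1
    push_cast at a1
    rw [ZMod.pow_card_pow] at a1
    exact (ZMod.intCast_zmod_eq_zero_iff_dvd _ ℓ).mp (by push_cast; rw [a1, sub_self])
  obtain ⟨k, hk⟩ := f1_lte hℓ h2 hw e6 e4
  obtain ⟨i, -, hi⟩ := hζ.eq_pow_of_pow_eq_one (ξ := ξ) (by rw [pow_add, pow_mul, hξ, one_pow])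
  have hξ0 : ξ ≠ 0 := by
    rintro rfl
    simp [hℓ.ne_zero] at hξ
  have e7 : t ξ = ξ ^ c := by rw [← hi, map_pow, tc, ← pow_mul, ← pow_mul, mul_comm]
  have e8 : (c : ℤ) = (ℓ ^ n : ℕ) * k + 1 := by push_cast; linear_combination hk
  rw [e7, ← zpow_natCast, e8, zpow_add₀ hξ0, zpow_mul, zpow_natCast, hξ, one_zpow, one_mul,
    zpow_one]

theorem f1_x0 (hE : IsSolvablyClosed E) {ℓ : ℕ} [Fact ℓ.Prime] {t : E ≃ₐ[F] E} (ht : t ≠ 1)
    (hp : ProL ℓ t) (hμ : ∀ (n : ℕ) (ξ : E), ξ ^ (ℓ ^ n) = 1 → t ξ = ξ) {ζ : E}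
    (hζ : IsPrimitiveRoot ζ ℓ) : ∃ x : E, x ≠ 0 ∧ t x = x ∧ kap ζ ℓ t x ≠ 0 := by
  have hℓ : ℓ.Prime := Fact.out
  have := cz F E
  obtain ⟨w, hw⟩ : ∃ w, t w ≠ w := by
    by_contra hc
    push Not at hc
    exact ht (AlgEquiv.ext hc)
  obtain ⟨n, hn⟩ := hp.exists_pow_fix w
  obtain ⟨ξ, hξ⟩ := sc_prim hE (pow_pos hℓ.pos n)
  obtain ⟨R, hR, hs⟩ := resolve hξ (hμ n ξ hξ.pow_eq_one) hn
  obtain ⟨j, hj0, hj1⟩ : ∃ j, R j ≠ 0 ∧ ξ ^ j ≠ 1 := by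
    by_contra hc
    push Not at hc
    apply hw
    rw [← hs, map_sum]
    refine Finset.sum_congr rfl fun j _ => ?_
    by_cases h0 : R j = 0
    · rw [h0, map_zero]
    · rw [hR, hc j h0, one_mul]
  have ex : ∃ i, (ξ ^ j) ^ (ℓ ^ i) = 1 :=
    ⟨n, by rw [← pow_mul, mul_comm, pow_mul, hξ.pow_eq_one, one_pow]⟩
  classical
  have h1 := Nat.find_spec ex
  have h0 : Nat.find ex ≠ 0 := by
    intro h0
    rw [h0, pow_zero, pow_one] at h1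
    exact hj1 h1
  obtain ⟨i, hi⟩ := Nat.exists_eq_succ_of_ne_zero h0
  have h3 := Nat.find_min ex (m := i) (by omega)
  rw [hi] at h1
  have hz : R j ^ ℓ ^ i ≠ 0 := pow_ne_zero _ hj0
  have tx : t ((R j ^ ℓ ^ i) ^ ℓ) = (R j ^ ℓ ^ i) ^ ℓ := by
    rw [← pow_mul, ← pow_succ, map_pow, hR, mul_pow, h1, one_mul]
  refine ⟨(R j ^ ℓ ^ i) ^ ℓ, pow_ne_zero _ hz, tx, fun h4 => h3 ?_⟩
  rw [kap_eq_zero_iff hζ (hμ 1 ζ (by rw [pow_one, hζ.pow_eq_one])) (pow_ne_zero _ hz) tx rfl,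
    map_pow, hR, mul_pow] at h4
  exact (mul_eq_right₀ hz).mp h4

theorem f1_unit (hE : IsSolvablyClosed E) {ℓ : ℕ} [Fact ℓ.Prime] {t : E ≃ₐ[F] E}
    (hμ : ∀ (n : ℕ) (ξ : E), ξ ^ (ℓ ^ n) = 1 → t ξ = ξ) {ζ : E} (hζ : IsPrimitiveRoot ζ ℓ) {x : E}
    (hx0 : x ≠ 0) (hx : t x = x) (hk : kap ζ ℓ t x ≠ 0) (n : ℕ) {ξ : E}
    (hξ : IsPrimitiveRoot ξ (ℓ ^ n)) : IsUnit (kap ξ (ℓ ^ n) t x) := by
  have hℓ : ℓ.Prime := Fact.out
  have := cz F E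
  rw [← ZMod.natCast_zmod_val (kap ξ (ℓ ^ n) t x), ZMod.isUnit_iff_coprime]
  rcases n with _ | n
  · simp
  apply Nat.Coprime.pow_right
  rw [Nat.coprime_comm, hℓ.coprime_iff_not_dvd]
  rintro ⟨b, hb⟩
  obtain ⟨z, hz⟩ := sc_root hE (pow_pos hℓ.pos (n + 1)) x
  have e := kap_spec hξ (hμ _ ξ hξ.pow_eq_one) hx0 hx hz
  apply hk
  rw [kap_eq_zero_iff hζ (hμ 1 ζ (by rw [pow_one, hζ.pow_eq_one])) hx0 hx (z := z ^ ℓ ^ n)
    (by rw [← pow_mul, ← pow_succ, hz]), map_pow, e, hb, mul_pow, ← pow_mul,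
    show ℓ * b * ℓ ^ n = ℓ ^ (n + 1) * b by ring, pow_mul, hξ.pow_eq_one, one_pow, one_mul]

theorem f1_act (hE : IsSolvablyClosed E) {ℓ : ℕ} [Fact ℓ.Prime] {t g : E ≃ₐ[F] E}
    (hμ : ∀ (n : ℕ) (ξ : E), ξ ^ (ℓ ^ n) = 1 → t ξ = ξ) {ζ : E} (hζ : IsPrimitiveRoot ζ ℓ) {x : E}
    (hx0 : x ≠ 0) (hx : t x = x) (hk : kap ζ ℓ t x ≠ 0) {u : ℕ} (h : g * t = t ^ u * g)
    (hgx : t (g x) = g x)
    (he : ∀ (n : ℕ) (ξ : E), IsPrimitiveRoot ξ (ℓ ^ n) →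
      kap ξ (ℓ ^ n) t (g x) = kap ξ (ℓ ^ n) t x)
    (n : ℕ) (η : E) (hη : η ^ (ℓ ^ n) = 1) : g η = η ^ u := by
  have hℓ : ℓ.Prime := Fact.out
  have := cz F E
  obtain ⟨ξ, hξ⟩ := sc_prim hE (pow_pos hℓ.pos n)
  obtain ⟨d, -, hd⟩ := f1_exp hξ g
  have e := kap_conj (sc_root hE (pow_pos hℓ.pos n)) hξ (hμ _ ξ hξ.pow_eq_one) h hd hx0 hx hgx
  rw [he n ξ hξ] at e
  have e2 := (f1_unit hE hμ hζ hx0 hx hk n hξ).mul_right_cancel e
  have e3 : ξ ^ d = ξ ^ u := by rw [← zp_cast hξ, ← e2, zp_cast hξ]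
  obtain ⟨i, -, rfl⟩ := hξ.eq_pow_of_pow_eq_one hη
  rw [map_pow, hd, e3, ← pow_mul, ← pow_mul, mul_comm]

theorem f1_add0 (hE : IsSolvablyClosed E) {m : ℕ} [NeZero m] {ζ : E} (hζ : IsPrimitiveRoot ζ m)
    {t f : E ≃ₐ[F] E} (ht : t ζ = ζ) (hf : f ζ = ζ) :
    Add0 fun y : fix2 t f => (kap ζ m t y, kap ζ m f y) := by
  have := cz F E
  intro x y hx hy
  have hx' : (x : E) ≠ 0 := by simpa using hx
  have hy' : (y : E) ≠ 0 := by simpa using hy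
  have hr := sc_root hE (Nat.pos_of_ne_zero (NeZero.ne m))
  simp only [Subfield.coe_mul, Prod.mk_add_mk]
  rw [kap_mul hr hζ ht hx' hy' x.2.1 y.2.1, kap_mul hr hζ hf hx' hy' x.2.2 y.2.2]

theorem f1_rigid (hE : IsSolvablyClosed E) {ℓ : ℕ} [Fact ℓ.Prime] (h2 : ℓ ≠ 2)
    {t φ : E ≃ₐ[F] E} {u : ℕ} (hu : 2 ≤ u) (hlu : ¬ ℓ ∣ u) (h : φ * t = t ^ u * φ)
    (hμ : ∀ (n : ℕ) (ξ : E), ξ ^ (ℓ ^ n) = 1 → t ξ = ξ) {ζ : E} (hζ : IsPrimitiveRoot ζ ℓ) {x : E}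
    (hx0 : x ≠ 0) (hx : t x = x) (hk : kap ζ ℓ t x ≠ 0) :
    Rigid fun y : fix2 t t => kap ζ ℓ t y := by
  have hℓ : ℓ.Prime := Fact.out
  have := cz F E
  intro y hy0 hy
  obtain ⟨N₀, hN₀, h₀⟩ := f1_period φ x
  obtain ⟨N₁, hN₁, h₁⟩ := f1_period φ (y : E)
  have hN : (ℓ - 1) * (N₀ * N₁) ≠ 0 :=
    mul_ne_zero (by have := hℓ.two_le; omega) (mul_pos hN₀ hN₁).ne'
  set N := (ℓ - 1) * (N₀ * N₁) with hNdef
  have fx : (φ ^ N) x = x := by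
    rw [hNdef, show (ℓ - 1) * (N₀ * N₁) = N₀ * ((ℓ - 1) * N₁) by ring, pow_mul]
    exact f1_pow_fix h₀ _
  have fy : (φ ^ N) y = y := by
    rw [hNdef, show (ℓ - 1) * (N₀ * N₁) = N₁ * ((ℓ - 1) * N₀) by ring, pow_mul]
    exact f1_pow_fix h₁ _
  have rel := f1_rel_pow h N
  have act := f1_act hE hμ hζ hx0 hx hk rel (by rw [fx, hx]) (fun n ξ _ => by rw [fx])
  have hu1 : ((u ^ N : ℕ) : ZMod ℓ) = 1 := by
    push_cast
    rw [hNdef, pow_mul, ZMod.pow_card_sub_one_eq_one, one_pow]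
    rwa [Ne, ZMod.natCast_eq_zero_iff]
  have tζ : t ζ = ζ := hμ 1 ζ (by rw [pow_one, hζ.pow_eq_one])
  have fζ : (φ ^ N) ζ = ζ := by
    rw [act 1 ζ (by rw [pow_one, hζ.pow_eq_one]), ← zp_cast hζ, hu1, ZMod.val_one, pow_one]
  obtain ⟨w, hw⟩ : ∃ w, u ^ N = w + 1 := ⟨u ^ N - 1, by have := Nat.one_le_pow N u (by omega); omega⟩
  have hw0 : w ≠ 0 := by
    have := Nat.one_lt_pow hN (show 1 < u by omega)
    omega
  obtain ⟨j, w', hw', hj⟩ := Nat.exists_eq_pow_mul_and_not_dvd hw0 ℓ hℓ.ne_one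
  obtain ⟨z, hz⟩ := sc_prim hE (pow_pos hℓ.pos (j + 1))
  have hz0 : z ≠ 0 := hz.ne_zero (pow_ne_zero _ hℓ.ne_zero)
  have h0 : (z ^ ℓ) ^ (ℓ ^ j) = 1 := by rw [← pow_mul, ← pow_succ', hz.pow_eq_one]
  have f0 : (φ ^ N) (z ^ ℓ) = z ^ ℓ := by
    rw [act j _ h0, hw, pow_succ, hj, pow_mul, h0, one_pow, one_mul]
  have t0 : t (z ^ ℓ) = z ^ ℓ := hμ j _ h0
  have hadd := f1_add0 hE hζ tζ fζ
  have hst : Stein fun y : fix2 t (φ ^ N) => (kap ζ ℓ t y, kap ζ ℓ (φ ^ N) y) := by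
    intro y hy0 hy1
    simp only [Subfield.coe_sub, Subfield.coe_one]
    exact steinberg h2 (sc_root hE hℓ.pos) hζ tζ fζ hu1 rel (by simpa using hy0)
      (by simpa using hy1) y.2.1 y.2.2
  have hr := koenigsmann hadd h2 hst (ζ := ⟨z ^ ℓ, t0, f0⟩) (m := ℓ ^ j)
    (pow_ne_zero _ hℓ.ne_zero) (Subtype.ext (by simpa using h0))
    ((kap_eq_zero_iff hζ tζ (pow_ne_zero _ hz0) t0 rfl).mpr (hμ _ z hz.pow_eq_one))
    (by
      intro h3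
      rw [kap_eq_zero_iff hζ fζ (pow_ne_zero _ hz0) f0 rfl, act _ z hz.pow_eq_one, hw,
        pow_succ] at h3
      have h4 := (hz.pow_eq_one_iff_dvd w).mp ((mul_eq_right₀ hz0).mp h3)
      rw [hj, pow_succ] at h4
      exact hw' (Nat.dvd_of_mul_dvd_mul_left (pow_pos hℓ.pos j) h4))
  exact hr ⟨y, y.2.1, fy⟩ (fun e => hy0 (Subtype.ext
    (by have := congrArg Subtype.val e; exact this))) hy

theorem f1_sum_mem {L ι : Type*} [Field L] (A : ValuationSubring L) (s : Finset ι) (R : ι → L)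
    (hd : ∀ i ∈ s, ∀ j ∈ s, i ≠ j → R i ≠ 0 → R j ≠ 0 → A.valuation (R i) ≠ A.valuation (R j))
    (h : ∑ i ∈ s, R i ∈ A) : ∀ i ∈ s, R i ∈ A := by
  classical
  intro i hi
  obtain ⟨j, hj, hmax⟩ := s.exists_max_image (fun i => A.valuation (R i)) ⟨i, hi⟩
  rw [← A.valuation_le_one_iff] at h ⊢
  refine (hmax i hi).trans ?_
  by_cases h0 : R j = 0
  · simp [h0]
  rwa [A.valuation.map_sum_eq_of_lt hj] at h
  intro k hk
  rw [Finset.mem_sdiff, Finset.mem_singleton] at hk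
  by_cases hk0 : R k = 0
  · rw [hk0, map_zero]; exact (Valuation.pos_iff _).mpr h0
  · exact lt_of_le_of_ne (hmax k hk.1) (hd k hk.1 j hj hk.2 hk0 h0)

theorem f1_mem_of_pow {L : Type*} [Field L] (A : ValuationSubring L) {x : L} {m : ℕ} (hm : m ≠ 0)
    (h : x ^ m ∈ A) : x ∈ A := by
  rw [← A.valuation_le_one_iff] at h ⊢
  rw [map_pow] at h
  exact (pow_le_one_iff_of_nonneg zero_le hm).mp h

theorem f1_stab (hE : IsSolvablyClosed E) {ℓ : ℕ} [Fact ℓ.Prime] {t g : E ≃ₐ[F] E}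
    (hp : ProL ℓ t) (hμ : ∀ (n : ℕ) (ξ : E), ξ ^ (ℓ ^ n) = 1 → t ξ = ξ) {A : ValuationSubring E}
    (hA : FixRoots ℓ A t) (hg : ∀ y ∈ A, t y = y → g y ∈ A) {w : E} (hw : w ∈ A) : g w ∈ A := by
  have hℓ : ℓ.Prime := Fact.out
  have := cz F E
  obtain ⟨n, hn⟩ := hp.exists_pow_fix w
  obtain ⟨ξ, hξ⟩ := sc_prim hE (pow_pos hℓ.pos n)
  obtain ⟨R, hR, hs⟩ := resolve hξ (hμ n ξ hξ.pow_eq_one) hn
  have hRM : ∀ j, t (R j ^ ℓ ^ n) = R j ^ ℓ ^ n := fun j => by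
    rw [map_pow, hR, mul_pow, ← pow_mul, mul_comm j, pow_mul, hξ.pow_eq_one, one_pow, one_mul]
  have hmem := f1_sum_mem A (Finset.range (ℓ ^ n)) R (by
    intro i hi j hj hij hi0 hj0 e
    have h1 := hA (R i / R j) n
      (by rw [map_div₀, e, div_self ((Valuation.ne_zero_iff _).mpr hj0)])
      (by rw [div_pow, map_div₀, hRM, hRM])
    have hξ0 : ξ ≠ 0 := hξ.ne_zero (pow_ne_zero _ hℓ.ne_zero)
    rw [map_div₀, hR, hR] at h1
    apply hij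
    apply hξ.pow_inj (Finset.mem_range.mp hi) (Finset.mem_range.mp hj)
    field_simp at h1
    exact h1) (by rwa [hs])
  rw [← hs, map_sum]
  refine A.toSubring.sum_mem fun j hj => ?_
  refine f1_mem_of_pow A (pow_ne_zero n hℓ.ne_zero) ?_
  rw [← map_pow]
  exact hg _ (A.pow_mem (hmem j hj) _) (hRM j)

theorem f1_main (hE : IsSolvablyClosed E) {ℓ : ℕ} (hℓ : ℓ.Prime) (h2 : ℓ ≠ 2) {t φ : E ≃ₐ[F] E}
    {u : ℕ} (ht : t ≠ 1) (hp : ProL ℓ t) (hu : 2 ≤ u) (hlu : ¬ ℓ ∣ u)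
    (h : φ * t * φ⁻¹ = t ^ u) :
    ∃ A : ValuationSubring E, A ≠ ⊤ ∧ Stab A φ ∧ FixRoots ℓ A t ∧
      ∀ (n : ℕ) (ζ : E), ζ ^ (ℓ ^ n) = 1 → φ ζ = ζ ^ u := by
  have : Fact ℓ.Prime := ⟨hℓ⟩
  have := cz F E
  have h' : φ * t = t ^ u * φ := by rw [← h]; group
  have hμ := f1_mu hE hℓ h2 hp hu h'
  obtain ⟨ζ, hζ⟩ := sc_prim hE hℓ.pos
  have tζ : t ζ = ζ := hμ 1 ζ (by rw [pow_one, hζ.pow_eq_one])
  obtain ⟨x, hx0, hx, hk⟩ := f1_x0 hE ht hp hμ hζ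
  have hr := f1_rigid hE h2 hu hlu h' hμ hζ hx0 hx hk
  have hadd : Add0 fun y : fix2 t t => kap ζ ℓ t y := fun a b ha hb =>
    congrArg Prod.fst (f1_add0 hE hζ tζ tζ a b ha hb)
  obtain ⟨A, hA⟩ := exists_comap_eq (fix2 t t).subtype (aejRing hadd h2 hr)
  have mem : ∀ y : fix2 t t, (y : E) ∈ A ↔ OO (fun y : fix2 t t => kap ζ ℓ t y) y := by
    intro y
    rw [← mem_aejRing hadd h2 hr, ← hA]
    rfl
  have unit : ∀ y : E, t y = y → A.valuation y = 1 → kap ζ ℓ t y = 0 := by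
    intro y hy hv
    have hy0 : y ≠ 0 := by rintro rfl; simp at hv
    refine OO.unit hadd h2 (x := ⟨y, hy, hy⟩) (fun e => hy0 (congrArg Subtype.val e))
      ((mem _).mp ?_) ((mem _).mp ?_)
    · exact (A.valuation_le_one_iff _).mp hv.le
    · refine (A.valuation_le_one_iff _).mp ?_
      simp [hv]
  have hFR : FixRoots ℓ A t := by
    intro z k
    induction k generalizing z with
    | zero => intro _ h1; simpa using h1
    | succ k ih =>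
      intro hv h1
      have hz0 : z ≠ 0 := by rintro rfl; simp at hv
      have hv' : A.valuation (z ^ ℓ) = 1 := by rw [map_pow, hv, one_pow]
      have h3 := ih (z ^ ℓ) hv' (by rwa [← pow_mul, ← pow_succ'])
      exact (kap_eq_zero_iff hζ tζ (pow_ne_zero _ hz0) h3 rfl).mp (unit _ h3 hv')
  have fw : ∀ y, t y = y → t (φ y) = φ y := by
    intro y hy
    apply f1_fix_of_pow hℓ hlu hp
    rw [← AlgEquiv.mul_apply, ← h', AlgEquiv.mul_apply, hy]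
  have bw : ∀ y, t y = y → t (φ.symm y) = φ.symm y := by
    intro y hy
    apply φ.injective
    rw [← AlgEquiv.mul_apply, h', AlgEquiv.mul_apply, φ.apply_symm_apply, f1_pow_fix hy]
  let σ : fix2 t t ≃+* fix2 t t :=
    { toFun := fun y => ⟨φ y, fw _ y.2.1, fw _ y.2.1⟩
      invFun := fun y => ⟨φ.symm y, bw _ y.2.1, bw _ y.2.1⟩
      left_inv := fun y => Subtype.ext (φ.symm_apply_apply _)
      right_inv := fun y => Subtype.ext (φ.apply_symm_apply _)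
      map_mul' := fun a b => Subtype.ext (map_mul φ _ _)
      map_add' := fun a b => Subtype.ext (map_add φ _ _) }
  obtain ⟨d, hd, φd⟩ := f1_exp hζ φ
  have hσ : ∀ y : fix2 t t, y ≠ 0 → (kap ζ ℓ t (σ y : E) = 0 ↔ kap ζ ℓ t (y : E) = 0) := by
    intro y hy
    have e := kap_conj (sc_root hE hℓ.pos) hζ tζ h' φd (y := y) (by simpa using hy) y.2.1
      (fw _ y.2.1)
    have u0 : (u : ZMod ℓ) ≠ 0 := by rwa [Ne, ZMod.natCast_eq_zero_iff]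
    have d0 : (d : ZMod ℓ) ≠ 0 := ((ZMod.isUnit_iff_coprime d ℓ).mpr hd).ne_zero
    change kap ζ ℓ t (φ y) = 0 ↔ _
    constructor
    · intro h3
      rw [h3, mul_zero] at e
      exact (mul_eq_zero.mp e.symm).resolve_left d0
    · intro h3
      rw [h3, mul_zero] at e
      exact (mul_eq_zero.mp e).resolve_left u0
  have hσ' : ∀ y : fix2 t t, y ≠ 0 →
      (kap ζ ℓ t (σ.symm y : E) = 0 ↔ kap ζ ℓ t (y : E) = 0) := by
    intro y hy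
    have := hσ (σ.symm y) (by simpa using hy)
    rw [σ.apply_symm_apply] at this
    exact this.symm
  have hS : Stab A φ := by
    intro w
    constructor
    · intro hw
      have := f1_stab hE (g := φ.symm) hp hμ hFR (fun y hy ty =>
        (mem (σ.symm ⟨y, ty, ty⟩)).mpr (OO.map hσ' hadd h2 ((mem ⟨y, ty, ty⟩).mp hy))) hw
      rwa [φ.symm_apply_apply] at this
    · exact f1_stab hE hp hμ hFR fun y hy ty =>
        (mem (σ ⟨y, ty, ty⟩)).mpr (OO.map hσ hadd h2 ((mem ⟨y, ty, ty⟩).mp hy))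
  refine ⟨A, ?_, hS, hFR, f1_act hE hμ hζ hx0 hx hk h' (fw x hx) fun n ξ hξ => ?_⟩
  · rintro rfl
    exact hk (OO.unit hadd h2 (x := ⟨x, hx, hx⟩) (fun e => hx0 (congrArg Subtype.val e))
      ((mem _).mp (ValuationSubring.mem_top _)) ((mem _).mp (ValuationSubring.mem_top _)))
  · have tξ := hμ _ ξ hξ.pow_eq_one
    have hq0 : φ x / x ≠ 0 := div_ne_zero (by simpa using hx0) hx0
    have tq : t (φ x / x) = φ x / x := by rw [map_div₀, fw x hx, hx]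
    have hv : A.valuation (φ x / x) = 1 := by
      rw [map_div₀, hS.val_eq, div_self ((Valuation.ne_zero_iff _).mpr hx0)]
    obtain ⟨z, hz⟩ := sc_root hE (pow_pos hℓ.pos n) (φ x / x)
    have hzv : A.valuation z = 1 := by
      have : A.valuation z ^ ℓ ^ n = 1 := by rw [← map_pow, hz, hv]
      exact (pow_eq_one_iff_left (pow_ne_zero _ hℓ.ne_zero)).mp this
    have h0 := (kap_eq_zero_iff hξ tξ hq0 tq hz).mpr (hFR z n hzv (by rw [hz, tq]))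
    have := kap_mul (sc_root hE (pow_pos hℓ.pos n)) hξ tξ hq0 hx0 tq hx
    rwa [div_mul_cancel₀ _ hx0, h0, zero_add] at this

end

end Crest.Agent.R18
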