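import Mathlib

/-! Row 18, block F1: the Arason-Elman-Jacob valuation of a rigid character. -/

set_option autoImplicit false

namespace Crest.Agent.R18

section
variable {K : Type*} [Field K] {ℓ : ℕ} [Fact ℓ.Prime]

/-- additive on nonzero elements -/
def Add0 {R : Type*} [AddCommGroup R] (ν : K → R) : Prop :=
  ∀ x y : K, x ≠ 0 → y ≠ 0 → ν (x * y) = ν x + ν y

/-- rigidity -/
def Rigid (ν : K → ZMod ℓ) : Prop :=
  ∀ y : K, y ≠ 0 → ν y ≠ 0 → ν (1 - y) = 0 ∨ ν (1 - y) = ν y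

def Om (ν : K → ZMod ℓ) (y : K) : Prop := y ≠ 0 ∧ ν y ≠ 0 ∧ ν (1 + y) = 0

def Op (ν : K → ZMod ℓ) (x : K) : Prop := x ≠ 0 ∧ ν x = 0 ∧ ∀ y, Om ν y → Om ν (x * y)

theorem Add0.one {R : Type*} [AddCommGroup R] {ν : K → R} (h : Add0 ν) : ν 1 = 0 := by
  have := h 1 1 one_ne_zero one_ne_zero
  rw [mul_one] at this
  exact left_eq_add.mp this

theorem Add0.inv {R : Type*} [AddCommGroup R] {ν : K → R} (h : Add0 ν) {x : K} (hx : x ≠ 0) :
    ν x⁻¹ = - ν x := by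
  have := h x x⁻¹ hx (inv_ne_zero hx)
  rw [mul_inv_cancel₀ hx, h.one] at this
  exact (neg_eq_of_add_eq_zero_right this.symm).symm

theorem Add0.pow {R : Type*} [AddCommGroup R] {ν : K → R} (h : Add0 ν) {x : K} (hx : x ≠ 0)
    (n : ℕ) : ν (x ^ n) = n • ν x := by
  induction n with
  | zero => simp [h.one]
  | succ n ih => rw [pow_succ, h _ _ (pow_ne_zero _ hx) hx, ih, succ_nsmul]

theorem two_ne_zmod (h2 : ℓ ≠ 2) : (2 : ZMod ℓ) ≠ 0 := by
  intro h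
  have : ((2 : ℕ) : ZMod ℓ) = 0 := by exact_mod_cast h
  rw [ZMod.natCast_eq_zero_iff] at this
  exact h2 ((Nat.prime_dvd_prime_iff_eq Fact.out Nat.prime_two).mp this)

theorem eq_zero_of_add_self (h2 : ℓ ≠ 2) {a : ZMod ℓ} (h : a + a = 0) : a = 0 := by
  have : (2 : ZMod ℓ) * a = 0 := by rw [two_mul]; exact h
  exact (mul_eq_zero.mp this).resolve_left (two_ne_zmod h2)

variable {ν : K → ZMod ℓ}

theorem Add0.neg_one (h : Add0 ν) (h2 : ℓ ≠ 2) : ν (-1) = 0 := by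
  have := h (-1) (-1) (by simp) (by simp)
  rw [neg_one_mul, neg_neg, h.one] at this
  exact eq_zero_of_add_self h2 this.symm

theorem Add0.neg (h : Add0 ν) (h2 : ℓ ≠ 2) (x : K) : ν (-x) = ν x := by
  by_cases hx : x = 0
  · simp [hx]
  rw [← neg_one_mul, h _ _ (by simp) hx, h.neg_one h2, zero_add]

theorem add_ne_zero_of_nu (h : Add0 ν) (h2 : ℓ ≠ 2) {y z : K} (hyz : ν y ≠ ν z) : y + z ≠ 0 := by
  intro h0
  have : y = -z := eq_neg_of_add_eq_zero_left h0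
  exact hyz (by rw [this, h.neg h2])

theorem nu_add (h : Add0 ν) (h2 : ℓ ≠ 2) (hr : Rigid ν) {y z : K} (hy : y ≠ 0) (hz : z ≠ 0)
    (hyz : ν y ≠ ν z) : ν (y + z) = ν y ∨ ν (y + z) = ν z := by
  have hw : -(z * y⁻¹) ≠ 0 := neg_ne_zero.mpr (mul_ne_zero hz (inv_ne_zero hy))
  have hνw : ν (-(z * y⁻¹)) = ν z - ν y := by
    rw [h.neg h2, h _ _ hz (inv_ne_zero hy), h.inv hy, sub_eq_add_neg]
  have h0 := add_ne_zero_of_nu h h2 hyz
  have e : y + z = y * (1 - -(z * y⁻¹)) := by field_simp; ring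
  have h1 : 1 - -(z * y⁻¹) ≠ 0 := by
    intro h1; rw [e, h1, mul_zero] at h0; exact h0 rfl
  rw [e, h _ _ hy h1]
  rcases hr _ hw (by rw [hνw]; exact sub_ne_zero.mpr hyz.symm) with h3 | h3
  · left; rw [h3, add_zero]
  · right; rw [h3, hνw]; ring

theorem one_add_ne (h : Add0 ν) (h2 : ℓ ≠ 2) {y : K} (hy : ν y ≠ 0) : 1 + y ≠ 0 :=
  add_ne_zero_of_nu h h2 (by rw [h.one]; exact hy.symm)

theorem nu_one_add (h : Add0 ν) (h2 : ℓ ≠ 2) (hr : Rigid ν) {y : K} (hy0 : y ≠ 0) (hy : ν y ≠ 0) :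
    ν (1 + y) = 0 ∨ ν (1 + y) = ν y := by
  have := nu_add h h2 hr one_ne_zero hy0 (by rw [h.one]; exact hy.symm)
  rwa [h.one] at this

theorem Om.neg (h : Add0 ν) (h2 : ℓ ≠ 2) (hr : Rigid ν) {y : K} (hy : Om ν y) : Om ν (-y) := by
  obtain ⟨hy0, hν, h1⟩ := hy
  have hνn : ν (-y) ≠ 0 := by rwa [h.neg h2]
  refine ⟨neg_ne_zero.mpr hy0, hνn, ?_⟩
  rcases nu_one_add h h2 hr (neg_ne_zero.mpr hy0) hνn with h3 | h3
  · exact h3
  exfalso
  rw [h.neg h2] at h3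
  have hyy : ν (y * y) = ν y + ν y := h _ _ hy0 hy0
  have hyy0 : ν (y * y) ≠ 0 := by
    rw [hyy]; exact fun h4 => hν (eq_zero_of_add_self h2 h4)
  have e : 1 - y * y = (1 + y) * (1 + -y) := by ring
  have h5 : ν (1 - y * y) = ν y := by
    rw [e, h _ _ (one_add_ne h h2 hν) (one_add_ne h h2 hνn), h1, h3, zero_add]
  rcases hr _ (mul_ne_zero hy0 hy0) hyy0 with h4 | h4
  · exact hν (h5.symm.trans h4)
  · rw [h5, hyy] at h4
    exact hν (left_eq_add.mp h4)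

theorem Om.aux (h : Add0 ν) (h2 : ℓ ≠ 2) (hr : Rigid ν) {y z : K} (hy : Om ν y) (hz : Om ν z) :
    1 + y * z ≠ 0 ∧ (ν (1 + y * z) = 0 ∨ ν (1 + y * z) = ν y) := by
  have hy' := hy.neg h h2 hr
  have e : 1 + y * z = (1 + -y) + y * (1 + z) := by ring
  have a1 : 1 + -y ≠ 0 := one_add_ne h h2 hy'.2.1
  have a2 : 1 + z ≠ 0 := one_add_ne h h2 hz.2.1
  have b : ν (y * (1 + z)) = ν y := by rw [h _ _ hy.1 a2, hz.2.2, add_zero]
  have hne : ν (1 + -y) ≠ ν (y * (1 + z)) := by rw [b, hy'.2.2]; exact hy.2.1.symm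
  refine ⟨by rw [e]; exact add_ne_zero_of_nu h h2 hne, ?_⟩
  have := nu_add h h2 hr a1 (mul_ne_zero hy.1 a2) hne
  rwa [← e, b, hy'.2.2] at this

theorem Om.one_add_mul (h : Add0 ν) (h2 : ℓ ≠ 2) (hr : Rigid ν) {y z : K} (hy : Om ν y)
    (hz : Om ν z) : ν (1 + y * z) = 0 := by
  have hyz : ν (y * z) = ν y + ν z := h _ _ hy.1 hz.1
  rcases (hy.aux h h2 hr hz).2 with h3 | h3
  · exact h3
  by_cases h0 : ν (y * z) = 0
  · rcases (hz.aux h h2 hr hy).2 with h4 | h4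
    · rwa [mul_comm] at h4
    · exfalso
      rw [mul_comm, h3] at h4
      rw [hyz, ← h4] at h0
      exact hy.2.1 (eq_zero_of_add_self h2 h0)
  · rcases nu_one_add h h2 hr (mul_ne_zero hy.1 hz.1) h0 with h4 | h4
    · exact h4
    · exfalso
      rw [h3, hyz] at h4
      exact hz.2.1 (left_eq_add.mp h4)

theorem Om.mul (h : Add0 ν) (h2 : ℓ ≠ 2) (hr : Rigid ν) {y z : K} (hy : Om ν y) (hz : Om ν z)
    (h0 : ν (y * z) ≠ 0) : Om ν (y * z) :=
  ⟨mul_ne_zero hy.1 hz.1, h0, hy.one_add_mul h h2 hr hz⟩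

theorem Om.mul_op (h : Add0 ν) (h2 : ℓ ≠ 2) (hr : Rigid ν) {y z : K} (hy : Om ν y) (hz : Om ν z)
    (h0 : ν (y * z) = 0) : Op ν (y * z) := by
  refine ⟨mul_ne_zero hy.1 hz.1, h0, fun w hw => ?_⟩
  have hyz : ν (y * z) = ν y + ν z := h _ _ hy.1 hz.1
  have hall : ν (y * z * w) ≠ 0 := by
    rw [h _ _ (mul_ne_zero hy.1 hz.1) hw.1, h0, zero_add]; exact hw.2.1
  by_cases h1 : ν (y * w) = 0
  · have h3 : ν (z * w) ≠ 0 := by
      intro h3
      rw [h _ _ hy.1 hw.1] at h1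
      rw [h _ _ hz.1 hw.1] at h3
      have : ν y = ν z := add_right_cancel (h1.trans h3.symm)
      rw [hyz, ← this] at h0
      exact hy.2.1 (eq_zero_of_add_self h2 h0)
    have := hy.mul h h2 hr (hz.mul h h2 hr hw h3) (by rwa [← mul_assoc])
    rwa [← mul_assoc] at this
  · have := (hy.mul h h2 hr hw h1).mul h h2 hr hz (by rwa [mul_right_comm])
    rwa [mul_right_comm] at this

theorem om_inv (h : Add0 ν) (h2 : ℓ ≠ 2) (hr : Rigid ν) {x : K} (hx : x ≠ 0) (hν : ν x ≠ 0)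
    (hn : ¬ Om ν x) : Om ν x⁻¹ := by
  have h1 : ν (1 + x) = ν x := by
    rcases nu_one_add h h2 hr hx hν with h3 | h3
    · exact absurd ⟨hx, hν, h3⟩ hn
    · exact h3
  refine ⟨inv_ne_zero hx, by rw [h.inv hx]; exact neg_ne_zero.mpr hν, ?_⟩
  have e : 1 + x⁻¹ = (1 + x) * x⁻¹ := by field_simp; ring
  rw [e, h _ _ (one_add_ne h h2 hν) (inv_ne_zero hx), h1, h.inv hx, add_neg_cancel]

theorem op_inv (h : Add0 ν) (h2 : ℓ ≠ 2) (hr : Rigid ν) {x : K} (hx : x ≠ 0) (hν : ν x = 0)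
    (hn : ¬ Op ν x) : Op ν x⁻¹ := by
  have : ∃ y, Om ν y ∧ ¬ Om ν (x * y) := by
    by_contra hc
    push Not at hc
    exact hn ⟨hx, hν, hc⟩
  obtain ⟨y, hy, hxy⟩ := this
  have h0 : ν (x * y) ≠ 0 := by rw [h _ _ hx hy.1, hν, zero_add]; exact hy.2.1
  have hp := om_inv h h2 hr (mul_ne_zero hx hy.1) h0 hxy
  have e : y * (x * y)⁻¹ = x⁻¹ := by have := hy.1; field_simp
  have := hy.mul_op h h2 hr hp (by rw [e, h.inv hx, hν, neg_zero])
  rwa [e] at this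

theorem Om.one_add_op (h : Add0 ν) (h2 : ℓ ≠ 2) (hr : Rigid ν) {y : K} (hy : Om ν y) :
    Op ν (1 + y) := by
  have a1 := one_add_ne h h2 hy.2.1
  refine ⟨a1, hy.2.2, fun w hw => ?_⟩
  by_contra hc
  have h0 : ν ((1 + y) * w) ≠ 0 := by rw [h _ _ a1 hw.1, hy.2.2, zero_add]; exact hw.2.1
  have hr' := om_inv h h2 hr (mul_ne_zero a1 hw.1) h0 hc
  have h3 := hr'.one_add_mul h h2 hr (hw.neg h h2 hr)
  have e : 1 + ((1 + y) * w)⁻¹ * -w = y * (1 + y)⁻¹ := by have := hw.1; field_simp; ring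
  rw [e, h _ _ hy.1 (inv_ne_zero a1), h.inv a1, hy.2.2, neg_zero, add_zero] at h3
  exact hy.2.1 h3

theorem Om.add (h : Add0 ν) (h2 : ℓ ≠ 2) (hr : Rigid ν) {w w' : K} (hw : Om ν w) (hw' : Om ν w') :
    ν (1 + (w + w')) = 0 := by
  have a1 := one_add_ne h h2 hw.2.1
  have h1 : Om ν (-(w * (1 + w)⁻¹)) := by
    refine ⟨neg_ne_zero.mpr (mul_ne_zero hw.1 (inv_ne_zero a1)), ?_, ?_⟩
    · rw [h.neg h2, h _ _ hw.1 (inv_ne_zero a1), h.inv a1, hw.2.2, neg_zero, add_zero]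
      exact hw.2.1
    · have e : 1 + -(w * (1 + w)⁻¹) = (1 + w)⁻¹ := by field_simp; ring
      rw [e, h.inv a1, hw.2.2, neg_zero]
  have h3 := h1.one_add_op h h2 hr
  have e : 1 + -(w * (1 + w)⁻¹) = (1 + w)⁻¹ := by field_simp; ring
  rw [e] at h3
  have h4 := h3.2.2 w' hw'
  have e2 : 1 + (w + w') = (1 + w) * (1 + (1 + w)⁻¹ * w') := by field_simp; ring
  rw [e2, h _ _ a1 (one_add_ne h h2 h4.2.1), hw.2.2, h4.2.2, add_zero]

/-- membership in the valuation ring -/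
def OO (ν : K → ZMod ℓ) (x : K) : Prop := x = 0 ∨ Om ν x ∨ Op ν x

theorem op_one : Add0 ν → Op ν 1 := fun h => ⟨one_ne_zero, h.one, fun y hy => by rwa [one_mul]⟩

theorem OO.mul (h : Add0 ν) (h2 : ℓ ≠ 2) (hr : Rigid ν) {x y : K} (hx : OO ν x) (hy : OO ν y) :
    OO ν (x * y) := by
  rcases hx with rfl | hx | hx
  · left; simp
  · rcases hy with rfl | hy | hy
    · left; simp
    · by_cases h0 : ν (x * y) = 0
      · exact Or.inr (Or.inr (hx.mul_op h h2 hr hy h0))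
      · exact Or.inr (Or.inl (hx.mul h h2 hr hy h0))
    · exact Or.inr (Or.inl (by rw [mul_comm]; exact hy.2.2 x hx))
  · rcases hy with rfl | hy | hy
    · left; simp
    · exact Or.inr (Or.inl (hx.2.2 y hy))
    · refine Or.inr (Or.inr ⟨mul_ne_zero hx.1 hy.1, by rw [h _ _ hx.1 hy.1, hx.2.1, hy.2.1, add_zero],
        fun w hw => ?_⟩)
      rw [mul_assoc]; exact hx.2.2 _ (hy.2.2 w hw)

theorem OO.one_add (h : Add0 ν) (h2 : ℓ ≠ 2) (hr : Rigid ν) {x : K} (hx : OO ν x) :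
    OO ν (1 + x) := by
  rcases hx with rfl | hx | hx
  · rw [add_zero]; exact Or.inr (Or.inr (op_one h))
  · exact Or.inr (Or.inr (hx.one_add_op h h2 hr))
  by_cases a1 : 1 + x = 0
  · exact Or.inl a1
  by_cases h0 : ν (1 + x) = 0
  · refine Or.inr (Or.inr ⟨a1, h0, fun w hw => ⟨mul_ne_zero a1 hw.1, ?_, ?_⟩⟩)
    · rw [h _ _ a1 hw.1, h0, zero_add]; exact hw.2.1
    · rw [add_mul, one_mul]; exact hw.add h h2 hr (hx.2.2 w hw)
  · refine Or.inr (Or.inl ?_)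
    by_contra hc
    have hr' := om_inv h h2 hr a1 h0 hc
    have h3 := (hr'.neg h h2 hr).2.2
    have e : 1 + -(1 + x)⁻¹ = x * (1 + x)⁻¹ := by field_simp; ring
    rw [e] at h3
    exact (hx.2.2 _ hr').2.1 h3

theorem OO.or_inv (h : Add0 ν) (h2 : ℓ ≠ 2) (hr : Rigid ν) (x : K) : OO ν x ∨ OO ν x⁻¹ := by
  by_cases hx : x = 0
  · exact Or.inl (Or.inl hx)
  by_cases h0 : ν x = 0
  · by_cases hn : Op ν x
    · exact Or.inl (Or.inr (Or.inr hn))
    · exact Or.inr (Or.inr (Or.inr (op_inv h h2 hr hx h0 hn)))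
  · by_cases hn : Om ν x
    · exact Or.inl (Or.inr (Or.inl hn))
    · exact Or.inr (Or.inr (Or.inl (om_inv h h2 hr hx h0 hn)))

theorem OO.add (h : Add0 ν) (h2 : ℓ ≠ 2) (hr : Rigid ν) {x y : K} (hx : OO ν x) (hy : OO ν y) :
    OO ν (x + y) := by
  by_cases hx0 : x = 0
  · rwa [hx0, zero_add]
  by_cases hy0 : y = 0
  · rwa [hy0, add_zero]
  rcases OO.or_inv h h2 hr (y * x⁻¹) with h3 | h3
  · have e : x + y = x * (1 + y * x⁻¹) := by field_simp
    rw [e]; exact hx.mul h h2 hr (h3.one_add h h2 hr)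
  · have e : x + y = y * (1 + (y * x⁻¹)⁻¹) := by field_simp; ring
    rw [e]; exact hy.mul h h2 hr (h3.one_add h h2 hr)

theorem oo_neg_one (h : Add0 ν) (h2 : ℓ ≠ 2) (hr : Rigid ν) : OO ν (-1) :=
  Or.inr (Or.inr ⟨by simp, h.neg_one h2, fun y hy => by rw [neg_one_mul]; exact hy.neg h h2 hr⟩)

/-- the valuation ring -/
def aejRing (h : Add0 ν) (h2 : ℓ ≠ 2) (hr : Rigid ν) : ValuationSubring K where
  carrier := {x | OO ν x}
  mul_mem' := fun hx hy => OO.mul h h2 hr hx hy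
  one_mem' := Or.inr (Or.inr (op_one h))
  add_mem' := fun hx hy => OO.add h h2 hr hx hy
  zero_mem' := Or.inl rfl
  neg_mem' := fun {x} hx => by
    have := (oo_neg_one h h2 hr).mul h h2 hr hx
    rwa [neg_one_mul] at this
  mem_or_inv_mem' := OO.or_inv h h2 hr

theorem mem_aejRing (h : Add0 ν) (h2 : ℓ ≠ 2) (hr : Rigid ν) (x : K) :
    x ∈ aejRing h h2 hr ↔ OO ν x := Iff.rfl

theorem OO.unit (h : Add0 ν) (h2 : ℓ ≠ 2) {x : K} (hx0 : x ≠ 0) (hx : OO ν x) (hi : OO ν x⁻¹) :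
    ν x = 0 := by
  by_contra hν
  have hν' : ν x⁻¹ ≠ 0 := by rw [h.inv hx0]; exact neg_ne_zero.mpr hν
  have a : Om ν x := by
    rcases hx with hx | hx | hx
    · exact absurd hx hx0
    · exact hx
    · exact absurd hx.2.1 hν
  have b : Om ν x⁻¹ := by
    rcases hi with hi | hi | hi
    · exact absurd hi (inv_ne_zero hx0)
    · exact hi
    · exact absurd hi.2.1 hν'
  have e : 1 + x = x * (1 + x⁻¹) := by field_simp; ring
  have := a.2.2
  rw [e, h _ _ hx0 (one_add_ne h h2 hν'), b.2.2, add_zero] at this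
  exact hν this

/-- invariance under automorphisms preserving the kernel -/
theorem OO.map {σ : K ≃+* K} (hσ : ∀ x, x ≠ 0 → (ν (σ x) = 0 ↔ ν x = 0)) (h : Add0 ν) (h2 : ℓ ≠ 2)
    {x : K} (hx : OO ν x) : OO ν (σ x) := by
  have om : ∀ y, Om ν (σ y) ↔ Om ν y := by
    intro y
    constructor
    · rintro ⟨a, b, c⟩
      have a' : y ≠ 0 := by rintro rfl; simp at a
      have b' : ν y ≠ 0 := fun h3 => b ((hσ y a').mpr h3)
      refine ⟨a', b', (hσ _ (one_add_ne h h2 b')).mp ?_⟩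
      rwa [map_add, map_one]
    · rintro ⟨a, b, c⟩
      refine ⟨by simpa using a, fun h3 => b ((hσ y a).mp h3), ?_⟩
      have := (hσ _ (one_add_ne h h2 b)).mpr c
      rwa [map_add, map_one] at this
  rcases hx with rfl | hx | hx
  · left; simp
  · exact Or.inr (Or.inl ((om x).mpr hx))
  · refine Or.inr (Or.inr ⟨by simpa using hx.1, (hσ x hx.1).mpr hx.2.1, fun y hy => ?_⟩)
    obtain ⟨y', rfl⟩ := σ.surjective y
    rw [← map_mul]
    exact (om _).mpr (hx.2.2 y' ((om y').mp hy))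

/-- a rigid character kills roots of unity -/
theorem Rigid.root (h : Add0 ν) (h2 : ℓ ≠ 2) (hr : Rigid ν) {ζ : K} {m : ℕ} (hm : m ≠ 0)
    (hζ : ζ ^ m = 1) : ν ζ = 0 := by
  have hζ0 : ζ ≠ 0 := by rintro rfl; simp [hm] at hζ
  have key : ∀ x : K, x ^ m = 1 → x ∈ aejRing h h2 hr := by
    intro x hx
    rw [← ValuationSubring.valuation_le_one_iff]
    have : (aejRing h h2 hr).valuation x ^ m = 1 := by rw [← map_pow, hx, map_one]
    exact ((pow_eq_one_iff_left hm).mp this).le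
  exact OO.unit h h2 hζ0 (key ζ hζ) (key ζ⁻¹ (by rw [inv_pow, hζ, inv_one]))

end

end Crest.Agent.R18
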