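import Crest.Agent.R18.F1.Koen

/-! Row 18, block F1: Kummer exponents of single automorphisms, Steinberg relation, resolvents. -/

set_option autoImplicit false
set_option linter.unusedSectionVars false

namespace Crest.Agent.R18

section
variable {F E : Type*} [Field F] [Field E] [Algebra F E]

/-- exponent of the action of `g` on `m`-th roots of `y` -/
noncomputable def kap (ζ : E) (m : ℕ) (g : E ≃ₐ[F] E) (y : E) : ZMod m :=
  Classical.epsilon fun a : ZMod m => ∀ z : E, z ^ m = y → g z = ζ ^ a.val * z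

variable {ζ : E} {m : ℕ} [NeZero m] {g : E ≃ₐ[F] E}

theorem zp_cast (hζ : IsPrimitiveRoot ζ m) (a : ℕ) : ζ ^ (a : ZMod m).val = ζ ^ a := by
  rw [ZMod.val_natCast]
  conv_rhs => rw [← Nat.mod_add_div a m, pow_add, pow_mul, hζ.pow_eq_one, one_pow, mul_one]

theorem zp_add (hζ : IsPrimitiveRoot ζ m) (a b : ZMod m) :
    ζ ^ (a + b).val = ζ ^ a.val * ζ ^ b.val := by
  rw [← pow_add, ← zp_cast hζ (a.val + b.val)]
  simp

theorem zp_inj_nat (hζ : IsPrimitiveRoot ζ m) {a b : ℕ} (h : ζ ^ a = ζ ^ b) :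
    (a : ZMod m) = b := by
  rw [← zp_cast hζ a, ← zp_cast hζ b] at h
  exact ZMod.val_injective m (hζ.pow_inj (ZMod.val_lt _) (ZMod.val_lt _) h)

theorem zp_inj (hζ : IsPrimitiveRoot ζ m) {a b : ZMod m} (h : ζ ^ a.val = ζ ^ b.val) : a = b := by
  simpa using zp_inj_nat hζ h

theorem fix_root_of_fix (hζ : IsPrimitiveRoot ζ m) (hg : g ζ = ζ) {ξ : E} (hξ : ξ ^ m = 1) :
    g ξ = ξ := by
  obtain ⟨i, -, rfl⟩ := hζ.eq_pow_of_pow_eq_one hξ
  rw [map_pow, hg]

theorem kap_spec (hζ : IsPrimitiveRoot ζ m) (hg : g ζ = ζ) {y z : E} (hy0 : y ≠ 0) (hy : g y = y)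
    (hz : z ^ m = y) : g z = ζ ^ (kap ζ m g y).val * z := by
  have hz0 : ∀ w : E, w ^ m = y → w ≠ 0 := by
    rintro w hw rfl
    exact hy0 (by rw [← hw, zero_pow (NeZero.ne m)])
  have ex : ∃ a : ZMod m, ∀ w : E, w ^ m = y → g w = ζ ^ a.val * w := by
    have h1 : (g z / z) ^ m = 1 := by
      rw [div_pow, ← map_pow, hz, hy, div_self hy0]
    obtain ⟨i, -, hi⟩ := hζ.eq_pow_of_pow_eq_one h1
    refine ⟨i, fun w hw => ?_⟩
    have h2 : (w / z) ^ m = 1 := by rw [div_pow, hw, hz, div_self hy0]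
    have h3 := fix_root_of_fix hζ hg h2
    have := hz0 z hz
    rw [zp_cast hζ, hi]
    calc g w = g (w / z * z) := by rw [div_mul_cancel₀ _ this]
      _ = w / z * g z := by rw [map_mul, h3]
      _ = g z / z * w := by field_simp
  exact Classical.epsilon_spec ex z hz

theorem kap_eq (hζ : IsPrimitiveRoot ζ m) (hg : g ζ = ζ) {y z : E} (hy0 : y ≠ 0) (hy : g y = y)
    (hz : z ^ m = y) {a : ℕ} (h : g z = ζ ^ a * z) : kap ζ m g y = a := by
  have hz0 : z ≠ 0 := by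
    rintro rfl
    exact hy0 (by rw [← hz, zero_pow (NeZero.ne m)])
  have := (kap_spec hζ hg hy0 hy hz).symm.trans h
  simpa using zp_inj_nat hζ (mul_right_cancel₀ hz0 this)

theorem kap_eq_zero_iff (hζ : IsPrimitiveRoot ζ m) (hg : g ζ = ζ) {y z : E} (hy0 : y ≠ 0)
    (hy : g y = y) (hz : z ^ m = y) : kap ζ m g y = 0 ↔ g z = z := by
  constructor
  · intro h
    rw [kap_spec hζ hg hy0 hy hz, h, ZMod.val_zero, pow_zero, one_mul]
  · intro h
    simpa using kap_eq hζ hg hy0 hy hz (a := 0) (by simpa using h)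

theorem kap_mul (hr : ∀ y : E, ∃ z, z ^ m = y) (hζ : IsPrimitiveRoot ζ m) (hg : g ζ = ζ) {x y : E}
    (hx0 : x ≠ 0) (hy0 : y ≠ 0) (hx : g x = x) (hy : g y = y) :
    kap ζ m g (x * y) = kap ζ m g x + kap ζ m g y := by
  obtain ⟨z, hz⟩ := hr x
  obtain ⟨w, hw⟩ := hr y
  have := kap_eq hζ hg (mul_ne_zero hx0 hy0) (by rw [map_mul, hx, hy])
    (z := z * w) (by rw [mul_pow, hz, hw]) (a := (kap ζ m g x).val + (kap ζ m g y).val) (by
      rw [map_mul, kap_spec hζ hg hx0 hx hz, kap_spec hζ hg hy0 hy hw, pow_add]; ring)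
  simpa using this

theorem pow_apply_eigen (hg : g ζ = ζ) {z : E} {a : ℕ} (h : g z = ζ ^ a * z) (n : ℕ) :
    (g ^ n) z = ζ ^ (n * a) * z := by
  induction n with
  | zero => simp
  | succ n ih =>
    rw [pow_succ', AlgEquiv.mul_apply, ih, map_mul, map_pow, hg, h]; ring

theorem kap_conj (hr : ∀ y : E, ∃ z, z ^ m = y) (hζ : IsPrimitiveRoot ζ m) {t φ : E ≃ₐ[F] E}
    (ht : t ζ = ζ) {u d : ℕ} (h : φ * t = t ^ u * φ) (hd : φ ζ = ζ ^ d) {y : E} (hy0 : y ≠ 0)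
    (hy : t y = y) (hy' : t (φ y) = φ y) :
    (u : ZMod m) * kap ζ m t (φ y) = d * kap ζ m t y := by
  obtain ⟨z, hz⟩ := hr y
  have hz0 : z ≠ 0 := by
    rintro rfl
    exact hy0 (by rw [← hz, zero_pow (NeZero.ne m)])
  have e1 := kap_spec hζ ht hy0 hy hz
  have e2 := kap_spec hζ ht (by simpa using hy0) hy' (z := φ z) (by rw [← map_pow, hz])
  have e3 := pow_apply_eigen ht e2 u
  have e4 : (t ^ u) (φ z) = ζ ^ (d * (kap ζ m t y).val) * φ z := by
    rw [← AlgEquiv.mul_apply, ← h, AlgEquiv.mul_apply, e1, map_mul, map_pow, hd, pow_mul]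
  have := zp_inj_nat hζ (mul_right_cancel₀ (by simpa using hz0) (e3.symm.trans e4))
  simpa using this

theorem prod_zmod {M : Type*} [CommMonoid M] (f : ℕ → M) :
    ∏ i : ZMod m, f i.val = ∏ i ∈ Finset.range m, f i := by
  refine Finset.prod_nbij' (fun i => i.val) (fun i => (i : ZMod m)) ?_ ?_ ?_ ?_ ?_
  · intro i _; exact Finset.mem_range.mpr (ZMod.val_lt i)
  · intro i _; exact Finset.mem_univ _
  · intro i _; simp
  · intro i hi; exact ZMod.val_cast_of_lt (Finset.mem_range.mp hi)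
  · intro i _; rfl

theorem zp_sum (hζ : IsPrimitiveRoot ζ m) {ι : Type*} (s : Finset ι) (a : ι → ZMod m) :
    ζ ^ (∑ i ∈ s, a i).val = ∏ i ∈ s, ζ ^ (a i).val := by
  classical
  induction s using Finset.induction_on with
  | empty => simp
  | insert i s hi ih => rw [Finset.sum_insert hi, Finset.prod_insert hi, zp_add hζ, ih]

/-- action on `a` and the roots `b i` -/
def Act (ζ a : E) (b : ZMod m → E) (g : E ≃ₐ[F] E) (n : ZMod m) (μ : ZMod m → ZMod m) : Prop :=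
  g ζ = ζ ∧ g a = ζ ^ n.val * a ∧ ∀ i, g (b i) = ζ ^ (μ i).val * b (i + n)

theorem Act.mul (hζ : IsPrimitiveRoot ζ m) {a : E} {b : ZMod m → E} {g h : E ≃ₐ[F] E}
    {n n' : ZMod m} {μ μ' : ZMod m → ZMod m} (hg : Act ζ a b g n μ) (hh : Act ζ a b h n' μ') :
    Act ζ a b (g * h) (n + n') fun i => μ' i + μ (i + n') := by
  refine ⟨by rw [AlgEquiv.mul_apply, hh.1, hg.1], ?_, fun i => ?_⟩
  · rw [AlgEquiv.mul_apply, hh.2.1, map_mul, map_pow, hg.1, hg.2.1, zp_add hζ]; ring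
  · rw [AlgEquiv.mul_apply, hh.2.2, map_mul, map_pow, hg.1, hg.2.2, zp_add hζ,
      show i + n' + n = i + (n + n') by ring]; ring

theorem Act.unique (hζ : IsPrimitiveRoot ζ m) {a : E} {b : ZMod m → E} (ha : a ≠ 0)
    (hb : ∀ i, b i ≠ 0) {n n' : ZMod m} {μ μ' : ZMod m → ZMod m} (h : Act ζ a b g n μ)
    (h' : Act ζ a b g n' μ') : μ = μ' := by
  have e : n = n' := zp_inj hζ (mul_right_cancel₀ ha (h.2.1.symm.trans h'.2.1))
  subst e
  funext i
  exact zp_inj hζ (mul_right_cancel₀ (hb _) ((h.2.2 i).symm.trans (h'.2.2 i)))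

theorem sum_shift (μ : ZMod m → ZMod m) (n : ZMod m) : ∑ i, μ (i + n) = ∑ i, μ i :=
  Fintype.sum_equiv (Equiv.addRight n) _ _ fun _ => rfl

theorem gam_shift (μ : ZMod m → ZMod m) (n : ZMod m) :
    ∑ i, i * μ (i + n) = ∑ i, i * μ i - n * ∑ i, μ i := by
  rw [Finset.mul_sum, ← Finset.sum_sub_distrib]
  exact Fintype.sum_equiv (Equiv.addRight n) _ _ fun i => by simp only [Equiv.coe_addRight]; ring

theorem Act.pow (hζ : IsPrimitiveRoot ζ m) {a : E} {b : ZMod m → E} {n : ZMod m}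
    {μ : ZMod m → ZMod m} (h : Act ζ a b g n μ) (k : ℕ) :
    ∃ μ' : ZMod m → ZMod m, Act ζ a b (g ^ k) (k * n) μ' ∧ ∑ i, μ' i = k * ∑ i, μ i ∧
      2 * ∑ i, i * μ' i = 2 * k * ∑ i, i * μ i - k * (k - 1) * n * ∑ i, μ i := by
  induction k with
  | zero => exact ⟨0, ⟨by simp, by simp, by simp⟩, by simp, by simp⟩
  | succ k ih =>
    obtain ⟨μ', h1, h2, h3⟩ := ih
    refine ⟨fun i => μ i + μ' (i + n), ?_, ?_, ?_⟩
    · have := h1.mul hζ h
      rw [← pow_succ] at this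
      convert this using 1
      push_cast; ring
    · rw [Finset.sum_add_distrib, sum_shift, h2]; push_cast; ring
    · simp only [mul_add, Finset.sum_add_distrib]
      rw [gam_shift, h2]; push_cast; linear_combination h3

theorem steinberg {ℓ : ℕ} [Fact ℓ.Prime] (h2 : ℓ ≠ 2) (hr : ∀ y : E, ∃ z, z ^ ℓ = y) {ζ : E}
    (hζ : IsPrimitiveRoot ζ ℓ) {t f : E ≃ₐ[F] E} (ht : t ζ = ζ) (hf : f ζ = ζ) {u : ℕ}
    (hu : (u : ZMod ℓ) = 1) (h : f * t = t ^ u * f) {y : E} (hy0 : y ≠ 0) (hy1 : y ≠ 1)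
    (hty : t y = y) (hfy : f y = y) :
    kap ζ ℓ t y * kap ζ ℓ f (1 - y) = kap ζ ℓ f y * kap ζ ℓ t (1 - y) := by
  have hℓ : ℓ.Prime := Fact.out
  obtain ⟨a, ha⟩ := hr y
  have ha0 : a ≠ 0 := by
    rintro rfl
    exact hy0 (by rw [← ha, zero_pow hℓ.ne_zero])
  choose b hb using fun i : ZMod ℓ => hr (1 - ζ ^ i.val * a)
  have hc0 : ∀ i : ZMod ℓ, 1 - ζ ^ i.val * a ≠ 0 := by
    intro i e
    apply hy1
    have : ζ ^ i.val * a = 1 := (sub_eq_zero.mp e).symm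
    have := congrArg (· ^ ℓ) this
    simp only [mul_pow, one_pow] at this
    rwa [← pow_mul, mul_comm i.val, pow_mul, hζ.pow_eq_one, one_pow, one_mul, ha] at this
  have hb0 : ∀ i, b i ≠ 0 := by
    intro i e
    exact hc0 i (by rw [← hb i, e, zero_pow hℓ.ne_zero])
  have hB : (∏ i, b i) ^ ℓ = 1 - y := by
    rw [← Finset.prod_pow]
    simp only [hb]
    rw [prod_zmod fun i => 1 - ζ ^ i * a]
    have := congrArg (Polynomial.eval 1) (X_pow_sub_C_eq_prod hζ hℓ.pos ha)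
    simpa [Polynomial.eval_prod] using this.symm
  have ex : ∀ g : E ≃ₐ[F] E, g ζ = ζ → g y = y →
      ∃ μ, Act ζ a b g (kap ζ ℓ g y) μ ∧ ∑ i, μ i = kap ζ ℓ g (1 - y) := by
    intro g hg hgy
    have e1 := kap_spec hζ hg hy0 hgy ha
    have : ∀ i, ∃ c : ZMod ℓ, g (b i) = ζ ^ c.val * b (i + kap ζ ℓ g y) := by
      intro i
      have h1 : (g (b i) / b (i + kap ζ ℓ g y)) ^ ℓ = 1 := by
        rw [div_pow, ← map_pow, hb, hb, map_sub, map_one, map_mul, map_pow, hg, e1, zp_add hζ,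
          mul_assoc, div_self]
        rw [← mul_assoc, ← zp_add hζ]
        exact hc0 _
      obtain ⟨j, -, hj⟩ := hζ.eq_pow_of_pow_eq_one h1
      exact ⟨j, by rw [zp_cast hζ, hj, div_mul_cancel₀ _ (hb0 _)]⟩
    choose μ hμ using this
    refine ⟨μ, ⟨hg, e1, hμ⟩, ?_⟩
    have := kap_eq hζ hg (sub_ne_zero.mpr hy1.symm) (by rw [map_sub, map_one, hgy]) hB
      (a := (∑ i, μ i).val) (by
        rw [map_prod, zp_sum hζ]
        simp only [hμ]
        rw [Finset.prod_mul_distrib]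
        congr 1
        exact Fintype.prod_equiv (Equiv.addRight _) _ _ fun _ => rfl)
    simpa using this.symm
  obtain ⟨μt, at1, at2⟩ := ex t ht hty
  obtain ⟨μf, af1, af2⟩ := ex f hf hfy
  obtain ⟨μu, au1, au2, au3⟩ := at1.pow hζ u
  have e1 := af1.mul hζ at1
  have e2 := au1.mul hζ af1
  rw [← h] at e2
  have e3 := congrArg (fun μ : ZMod ℓ → ZMod ℓ => ∑ i, i * μ i) (e1.unique hζ ha0 hb0 e2)
  simp only [mul_add, Finset.sum_add_distrib] at e3
  rw [gam_shift, gam_shift, au2, at2, af2] at e3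
  rw [hu] at e3 au3
  apply mul_left_cancel₀ (two_ne_zmod h2)
  linear_combination - 2 * e3 - au3

/-- Lagrange resolvents -/
theorem resolve [CharZero E] (hζ : IsPrimitiveRoot ζ m) (hg : g ζ = ζ) {w : E}
    (hw : (g ^ m) w = w) :
    ∃ R : ℕ → E, (∀ j, g (R j) = ζ ^ j * R j) ∧ ∑ j ∈ Finset.range m, R j = w := by
  have hm : (m : E) ≠ 0 := Nat.cast_ne_zero.mpr (NeZero.ne m)
  have hζ0 : ζ ≠ 0 := hζ.ne_zero (NeZero.ne m)
  refine ⟨fun j => (m : E)⁻¹ * ∑ i ∈ Finset.range m, (ζ⁻¹ ^ j) ^ i * (g ^ i) w, fun j => ?_, ?_⟩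
  · have h1 := Finset.sum_range_succ (fun i => (ζ⁻¹ ^ j) ^ i * (g ^ i) w) m
    have h2 := Finset.sum_range_succ' (fun i => (ζ⁻¹ ^ j) ^ i * (g ^ i) w) m
    have h3 : (ζ⁻¹ ^ j) ^ m = 1 := by
      rw [← pow_mul, mul_comm, pow_mul, inv_pow, hζ.pow_eq_one, inv_one, one_pow]
    rw [h1, h3, hw] at h2
    simp only [pow_zero, one_mul, AlgEquiv.one_apply, add_left_inj] at h2
    rw [map_mul, map_inv₀, map_natCast, mul_left_comm]
    congr 1
    conv_rhs => rw [h2]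
    rw [map_sum, Finset.mul_sum]
    refine Finset.sum_congr rfl fun i _ => ?_
    rw [map_mul, map_pow, map_pow, map_inv₀, hg, pow_succ' g, AlgEquiv.mul_apply, pow_succ]
    have h4 : ζ ^ j * ζ⁻¹ ^ j = 1 := by rw [← mul_pow, mul_inv_cancel₀ hζ0, one_pow]
    linear_combination (-((ζ⁻¹ ^ j) ^ i * g ((g ^ i) w))) * h4
  · rw [← Finset.mul_sum, Finset.sum_comm]
    have : ∀ i ∈ Finset.range m, ∑ j ∈ Finset.range m, (ζ⁻¹ ^ j) ^ i * (g ^ i) w =
        if i = 0 then (m : E) * w else 0 := by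
      intro i hi
      split_ifs with h0
      · simp [h0]
      · rw [← Finset.sum_mul]
        have h1 : ζ⁻¹ ^ i ≠ 1 := hζ.inv.pow_ne_one_of_pos_of_lt h0 (Finset.mem_range.mp hi)
        have h2 : ∑ j ∈ Finset.range m, (ζ⁻¹ ^ j) ^ i = 0 := by
          have h3 := geom_sum_eq h1 m
          have h4 : (ζ⁻¹ ^ i) ^ m = 1 := by
            rw [← pow_mul, mul_comm, pow_mul, inv_pow, hζ.pow_eq_one, inv_one, one_pow]
          rw [h4, sub_self, zero_div] at h3
          rw [← h3]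
          exact Finset.sum_congr rfl fun j _ => by rw [← pow_mul, mul_comm, pow_mul]
        rw [h2, zero_mul]
    rw [Finset.sum_congr rfl this, Finset.sum_ite_eq']
    simp [Nat.pos_of_ne_zero (NeZero.ne m), hm]

end

end Crest.Agent.R18
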