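import Crest.Agent.R18.F1.AEJ

/-! Row 18, block F1: Koenigsmann's counting lemma for rigid elements. -/

set_option autoImplicit false

namespace Crest.Agent.R18

section
variable {K : Type*} [Field K] {ℓ : ℕ} [Fact ℓ.Prime]

/-- Steinberg relation for a pair of characters -/
def Stein (c : K → ZMod ℓ × ZMod ℓ) : Prop :=
  ∀ y : K, y ≠ 0 → y ≠ 1 → (c y).1 * (c (1 - y)).2 = (c y).2 * (c (1 - y)).1

def dt (a b : ZMod ℓ × ZMod ℓ) : ZMod ℓ := a.1 * b.2 - a.2 * b.1

def NR (c : K → ZMod ℓ × ZMod ℓ) (a : ZMod ℓ × ZMod ℓ) (i : ZMod ℓ) : Prop :=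
  i ≠ 0 ∧ i ≠ 1 ∧ ∃ y : K, y ≠ 0 ∧ 1 - y ≠ 0 ∧ c y = a ∧ c (1 - y) = i • a

variable {c : K → ZMod ℓ × ZMod ℓ}

theorem dt_indep {a b : ZMod ℓ × ZMod ℓ} (h : dt a b ≠ 0) {x y : ZMod ℓ} (e : x • a + y • b = 0) :
    x = 0 ∧ y = 0 := by
  have e1 := congrArg Prod.fst e
  have e2 := congrArg Prod.snd e
  simp only [Prod.fst_add, Prod.smul_fst, smul_eq_mul, Prod.fst_zero, Prod.snd_add, Prod.smul_snd,
    Prod.snd_zero] at e1 e2
  unfold dt at h
  constructor
  · apply (mul_eq_zero.mp (_ : x * (a.1 * b.2 - a.2 * b.1) = 0)).resolve_right h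
    linear_combination b.2 * e1 - b.1 * e2
  · apply (mul_eq_zero.mp (_ : y * (a.1 * b.2 - a.2 * b.1) = 0)).resolve_right h
    linear_combination a.1 * e2 - a.2 * e1

theorem add0_neg2 (h : Add0 c) (h2 : ℓ ≠ 2) (x : K) : c (-x) = c x := by
  have h1 : Add0 fun x => (c x).1 := fun x y hx hy => by simp only [h x y hx hy, Prod.fst_add]
  have h3 : Add0 fun x => (c x).2 := fun x y hx hy => by simp only [h x y hx hy, Prod.snd_add]
  exact Prod.ext (h1.neg h2 x) (h3.neg h2 x)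

theorem Stein.exp (h : Add0 c) (hs : Stein c) {y : K} (hy : y ≠ 0) (h0 : c y ≠ 0) :
    1 - y ≠ 0 ∧ ∃ i : ZMod ℓ, c (1 - y) = i • c y := by
  have hy1 : y ≠ 1 := by rintro rfl; exact h0 h.one
  refine ⟨sub_ne_zero.mpr hy1.symm, ?_⟩
  have e := hs y hy hy1
  by_cases h1 : (c y).1 = 0
  · have h3 : (c y).2 ≠ 0 := fun h3 => h0 (Prod.ext h1 h3)
    refine ⟨(c (1 - y)).2 / (c y).2, Prod.ext ?_ ?_⟩
    · simp only [Prod.smul_fst, smul_eq_mul, h1, mul_zero]
      rw [h1, zero_mul] at e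
      exact (mul_eq_zero.mp e.symm).resolve_left h3
    · simp only [Prod.smul_snd, smul_eq_mul]; field_simp
  · refine ⟨(c (1 - y)).1 / (c y).1, Prod.ext ?_ ?_⟩
    · simp only [Prod.smul_fst, smul_eq_mul]; field_simp
    · simp only [Prod.smul_snd, smul_eq_mul]; field_simp; linear_combination e

theorem Stein.line (h : Add0 c) (h2 : ℓ ≠ 2) (hs : Stein c) {y z : K} (hy : y ≠ 0) (hz : z ≠ 0)
    (hne : c y ≠ c z) : y + z ≠ 0 ∧ ∃ l : ZMod ℓ, c (y + z) = c y + l • (c z - c y) := by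
  have hw : -(z * y⁻¹) ≠ 0 := neg_ne_zero.mpr (mul_ne_zero hz (inv_ne_zero hy))
  have hc : c (-(z * y⁻¹)) = c z - c y := by
    rw [add0_neg2 h h2, h _ _ hz (inv_ne_zero hy), h.inv hy, sub_eq_add_neg]
  obtain ⟨h1, i, hi⟩ := hs.exp h hw (by rw [hc]; exact sub_ne_zero.mpr hne.symm)
  have e : y + z = y * (1 - -(z * y⁻¹)) := by field_simp; ring
  refine ⟨by rw [e]; exact mul_ne_zero hy h1, i, ?_⟩
  rw [e, h _ _ hy h1, hi, hc]

theorem NR.ne (h : Add0 c) (h2 : ℓ ≠ 2) (hs : Stein c) {a b : ZMod ℓ × ZMod ℓ} {i j : ZMod ℓ}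
    (ha : NR c a i) (hb : NR c b j) (hd : dt a b ≠ 0) : i ≠ j := by
  obtain ⟨i0, i1, y, hy, hy1, cy, cy1⟩ := ha
  obtain ⟨j0, j1, z, hz, hz1, cz, cz1⟩ := hb
  have n1 : c (1 - y) ≠ c (-(1 - z)) := by
    rw [add0_neg2 h h2, cy1, cz1]
    intro e
    exact i0 (dt_indep hd (x := i) (y := -j) (by rw [e]; module)).1
  have n2 : c (-y) ≠ c z := by
    rw [add0_neg2 h h2, cy, cz]
    intro e
    exact one_ne_zero (dt_indep hd (x := 1) (y := -1) (by rw [e]; module)).1
  obtain ⟨-, l, hl⟩ := hs.line h h2 hy1 (neg_ne_zero.mpr hz1) n1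
  obtain ⟨-, m, hm⟩ := hs.line h h2 (neg_ne_zero.mpr hy) hz n2
  have e : 1 - y + -(1 - z) = -y + z := by ring
  rw [e, hm, add0_neg2 h h2, add0_neg2 h h2, cy, cz, cy1, cz1] at hl
  have := dt_indep hd (x := 1 - m - i + l * i) (y := m - l * j) (by
    have : (1 - m - i + l * i) • a + (m - l * j) • b =
      (a + m • (b - a)) - (i • a + l • (j • b - i • a)) := by module
    rw [this, hl, sub_self])
  rintro rfl
  apply i1
  linear_combination - this.1 - this.2

theorem NR.add (h : Add0 c) (h2 : ℓ ≠ 2) (hs : Stein c) {a b : ZMod ℓ × ZMod ℓ} {i j : ZMod ℓ}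
    (ha : NR c a i) (hb : NR c b j) (hd : dt a b ≠ 0) : ∃ k, NR c (a + b) k := by
  obtain ⟨i0, i1, y, hy, hy1, cy, cy1⟩ := ha
  obtain ⟨j0, j1, z, hz, hz1, cz, cz1⟩ := hb
  have cw : c (y * z) = a + b := by rw [h _ _ hy hz, cy, cz]
  have ab : a + b ≠ 0 := fun e =>
    one_ne_zero (dt_indep hd (x := 1) (y := 1) (by rw [one_smul, one_smul, e])).1
  obtain ⟨h1, k, hk⟩ := hs.exp h (mul_ne_zero hy hz) (by rwa [cw])
  have c2 : c (y * (1 - z)) = a + j • b := by rw [h _ _ hy hz1, cy, cz1]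
  have n1 : c (1 - y) ≠ c (y * (1 - z)) := by
    rw [cy1, c2]
    intro e
    exact j0 (dt_indep hd (x := 1 - i) (y := j) (by
      have : (1 - i) • a + j • b = (a + j • b) - i • a := by module
      rw [this, e, sub_self])).2
  obtain ⟨-, l, hl⟩ := hs.line h h2 hy1 (mul_ne_zero hy hz1) n1
  have e : 1 - y + y * (1 - z) = 1 - y * z := by ring
  rw [e, hk, cw, cy1, c2] at hl
  have := dt_indep hd (x := k - i - l * (1 - i)) (y := k - l * j) (by
    have : (k - i - l * (1 - i)) • a + (k - l * j) • b =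
      k • (a + b) - (i • a + l • (a + j • b - i • a)) := by module
    rw [this, hl, sub_self])
  obtain ⟨e1, e2⟩ := this
  refine ⟨k, ?_, ?_, y * z, mul_ne_zero hy hz, h1, cw, by rw [hk, cw]⟩
  · rintro rfl
    have : l = 0 := (mul_eq_zero.mp (by linear_combination -e2 : l * j = 0)).resolve_right j0
    apply i0
    rw [this] at e1
    linear_combination -e1
  · rintro rfl
    have : l = 1 := by
      have : (1 - i) * (1 - l) = 0 := by linear_combination e1
      have := (mul_eq_zero.mp this).resolve_left (sub_ne_zero.mpr i1.symm)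
      linear_combination -this
    apply j1
    rw [this] at e2
    linear_combination -e2

theorem NR.false (h : Add0 c) (h2 : ℓ ≠ 2) (hs : Stein c) {a b : ZMod ℓ × ZMod ℓ} {i j : ZMod ℓ}
    (ha : NR c a i) (hb : NR c b j) (hd : dt a b ≠ 0) : False := by
  have key : ∀ m : ℕ, ∃ k, NR c ((m : ZMod ℓ) • a + b) k := by
    intro m
    induction m with
    | zero => exact ⟨j, by simpa using hb⟩
    | succ m ih =>
      obtain ⟨k, hk⟩ := ih
      obtain ⟨k', hk'⟩ := ha.add h h2 hs hk (by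
        have : dt a ((m : ZMod ℓ) • a + b) = dt a b := by simp [dt]; ring
        rwa [this])
      refine ⟨k', ?_⟩
      have : ((m + 1 : ℕ) : ZMod ℓ) • a + b = a + ((m : ZMod ℓ) • a + b) := by
        push_cast; module
      rwa [this]
  have key2 : ∀ m : ZMod ℓ, ∃ k, NR c (m • a + b) k := fun m => by
    simpa using key m.val
  choose k hk using key2
  have inj : Function.Injective k := by
    intro m m' e
    by_contra hne
    refine (hk m).ne h h2 hs (hk m') ?_ e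
    have : dt (m • a + b) (m' • a + b) = (m - m') * dt a b := by simp [dt]; ring
    rw [this]
    exact mul_ne_zero (sub_ne_zero.mpr hne) hd
  obtain ⟨m, hm⟩ := Finite.surjective_of_injective inj 0
  exact (hk m).1 hm

theorem koenigsmann (h : Add0 c) (h2 : ℓ ≠ 2) (hs : Stein c) {ζ : K} {m : ℕ} (hm : m ≠ 0)
    (hζ : ζ ^ m = 1) (h1 : (c ζ).1 = 0) (h0 : (c ζ).2 ≠ 0) : Rigid fun x => (c x).1 := by
  intro y hy hy1
  by_contra hc
  push Not at hc
  have hy0 : c y ≠ 0 := fun e => hy1 (by simp [e])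
  obtain ⟨h1y, i, hi⟩ := hs.exp h hy hy0
  have ha : NR c (c y) i := by
    refine ⟨?_, ?_, y, hy, h1y, rfl, hi⟩
    · rintro rfl; exact hc.1 (by simp [hi])
    · rintro rfl; exact hc.2 (by simp [hi])
  have hadd : Add0 fun x => dt (c y) (c x) := fun x z hx hz => by
    simp only [h x z hx hz, dt, Prod.fst_add, Prod.snd_add]; ring
  have hr : Rigid fun x => dt (c y) (c x) := by
    intro x hx hx0
    have hcx : c x ≠ 0 := fun e => hx0 (by simp [e, dt])
    obtain ⟨h1x, j, hj⟩ := hs.exp h hx hcx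
    by_cases j0 : j = 0
    · left; simp [hj, j0, dt]
    by_cases j1 : j = 1
    · right; simp [hj, j1]
    exact (ha.false h h2 hs ⟨j0, j1, x, hx, h1x, rfl, hj⟩ hx0).elim
  have := hr.root hadd h2 hm hζ
  simp only [dt, h1, mul_zero, sub_zero] at this
  exact (mul_ne_zero hy1 h0) this

end

end Crest.Agent.R18
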